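import Vale.Agent.P038h8.Median

/-!
Good directions of a missing edge and the resulting sufficient condition.
-/

namespace Vale.Agent.P038h8

open Finset

open scoped Classical

variable {V : Type*}

/-- The direction `a → b` of a missing edge is good when adding it creates no new vertex
within out-distance two of any in-neighbour of `a`. -/
def GoodDir (r : V → V → Prop) (a b : V) : Prop :=
  ∀ f, r f a → r f b ∨ ∃ u, r f u ∧ r u b

/-- A non-good pair: two distinct non-adjacent vertices neither of whose directions is good. -/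
def NonGoodPair (r : V → V → Prop) (a b : V) : Prop :=
  a ≠ b ∧ ¬ r a b ∧ ¬ r b a ∧ ¬ GoodDir r a b ∧ ¬ GoodDir r b a

theorem NonGoodPair.symm {r : V → V → Prop} {a b : V} (h : NonGoodPair r a b) :
    NonGoodPair r b a :=
  ⟨h.1.symm, h.2.2.1, h.2.1, h.2.2.2.2, h.2.2.2.1⟩

/-- Witness structure of a non-good pair. -/
theorem NonGoodPair.witness {r : V → V → Prop} (hr : ∀ x y, r x y → ¬ r y x) {a b f : V}
    (h : NonGoodPair r a b) (hfa : r f a) (hfb : ¬ r f b) (hfu : ¬ ∃ u, r f u ∧ r u b) :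
    ∃ w, w ≠ f ∧ w ≠ a ∧ w ≠ b ∧ f ≠ a ∧ f ≠ b ∧ ¬ r w f ∧ ¬ r f w ∧ r w b := by
  have h4 := h.2.2.2.2
  unfold GoodDir at h4
  push Not at h4
  obtain ⟨w, hwb, hwa, hwu⟩ := h4
  have hrr : ∀ x, ¬ r x x := fun x hx => hr x x hx hx
  refine ⟨w, ?_, ?_, ?_, ?_, ?_, ?_, ?_, hwb⟩
  · rintro rfl; exact hfb hwb
  · rintro rfl; exact h.2.1 hwb
  · rintro rfl; exact hrr _ hwb
  · rintro rfl; exact hrr _ hfa
  · rintro rfl; exact h.2.2.1 hfa
  · intro hwf; exact hwu f hwf hfa
  · intro hfw; exact hfu ⟨w, hfw, hwb⟩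

section main

variable [Fintype V] (r : V → V → Prop)

/-- The completion: orient each good missing pair in a good direction. -/
theorem exists_seymour_of_nonGood [Nonempty V]
    (hr : ∀ x y, r x y → ¬ r y x)
    (hG : ∀ f b, b ≠ f → ¬ r f b → (¬ ∃ u, r f u ∧ r u b) →
      ∀ a₁ a₂, r f a₁ → r f a₂ → NonGoodPair r a₁ b → NonGoodPair r a₂ b → a₁ = a₂) :
    ∃ v, (firstOut r v).card ≤ (secondOut r v).card := by
  -- an injective labelling to break ties
  obtain ⟨n, ⟨e⟩⟩ : ∃ n, Nonempty (V ≃ Fin n) := ⟨_, ⟨Fintype.equivFin V⟩⟩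
  let r' : V → V → Prop := fun a b =>
    r a b ∨ (a ≠ b ∧ ¬ r b a ∧ GoodDir r a b ∧ (GoodDir r b a → e a < e b))
  have hrrefl : ∀ x, ¬ r x x := fun x hx => hr x x hx hx
  have hr' : ∀ x y, r' x y → ¬ r' y x := by
    rintro x y (hxy | ⟨hne, hyx, hg, hlt⟩) (hyx' | ⟨hne', hxy', hg', hlt'⟩)
    · exact hr _ _ hxy hyx'
    · exact hxy' hxy
    · exact hyx hyx'
    · exact absurd (hlt hg') (not_lt_of_gt (hlt' hg))
  have hsub : ∀ x y, r x y → r' x y := fun x y h => Or.inl h
  have G1 : ∀ a b f, r' a b → ¬ r a b → r f a → r f b ∨ ∃ u, r f u ∧ r u b := by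
    rintro a b f (h | ⟨_, _, hg, _⟩) hn hfa
    · exact absurd h hn
    · exact hg f hfa
  have hnogood : ∀ a b, a ≠ b → ¬ r' a b → ¬ r' b a → NonGoodPair r a b := by
    intro a b hne h1 h2
    have h3 : ¬ r a b := fun h => h1 (Or.inl h)
    have h4 : ¬ r b a := fun h => h2 (Or.inl h)
    refine ⟨hne, h3, h4, ?_, ?_⟩
    · intro hg
      apply h1
      refine Or.inr ⟨hne, h4, hg, fun hg' => ?_⟩
      by_contra hlt
      have hlt' : e b < e a := by
        have hne' : e a ≠ e b := fun h => hne (e.injective h)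
        rcases lt_or_gt_of_ne hne' with h | h
        · exact absurd h hlt
        · exact h
      exact h2 (Or.inr ⟨hne.symm, h3, hg', fun _ => hlt'⟩)
    · intro hg
      apply h2
      refine Or.inr ⟨hne.symm, h3, hg, fun hg' => ?_⟩
      by_contra hlt
      have hlt' : e a < e b := by
        have hne' : e b ≠ e a := fun h => hne (e.injective h).symm
        rcases lt_or_gt_of_ne hne' with h | h
        · exact absurd h hlt
        · exact h
      exact h1 (Or.inr ⟨hne, h4, hg', fun _ => hlt'⟩)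
  refine exists_seymour_of_completion r r' hr' hsub G1 ?_
  intro f b hbf hfb hfu
  rw [Finset.card_le_one]
  intro a₁ ha₁ a₂ ha₂
  simp only [mem_filter, mem_univ, true_and] at ha₁ ha₂
  exact hG f b hbf hfb hfu a₁ a₂ ha₁.1 ha₂.1 (hnogood _ _ ha₁.2.1 ha₁.2.2.1 ha₁.2.2.2)
    (hnogood _ _ ha₂.2.1 ha₂.2.2.1 ha₂.2.2.2)

end main

end Vale.Agent.P038h8
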