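import Mathlib

/-!
Median orders with a tie break for oriented graphs with a partial completion.
-/

namespace Vale.Agent.P038h8

open Finset

open scoped Classical

variable {V : Type*}

/-- Number of entries of `l` satisfying `p`. -/
noncomputable def cnt (p : V → Prop) (l : List V) : ℕ :=
  l.countP (fun x => @decide (p x) (Classical.propDecidable _))

@[simp] theorem cnt_nil (p : V → Prop) : cnt p [] = 0 := rfl

theorem cnt_cons (p : V → Prop) (x : V) (l : List V) :
    cnt p (x :: l) = cnt p l + (if p x then 1 else 0) := by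
  simp only [cnt, List.countP_cons]
  by_cases h : p x <;> simp [h]

theorem cnt_append (p : V → Prop) (l l' : List V) : cnt p (l ++ l') = cnt p l + cnt p l' := by
  simp [cnt, List.countP_append]

theorem cnt_mono {p q : V → Prop} {l : List V} (h : ∀ x ∈ l, p x → q x) : cnt p l ≤ cnt q l := by
  apply List.countP_mono_left
  intro x hx hp
  simp only [decide_eq_true_eq] at hp ⊢
  exact h x hx hp

theorem cnt_le_add_of_imp {p q s : V → Prop} {l : List V} (h : ∀ x ∈ l, p x → q x ∨ s x) :
    cnt p l ≤ cnt q l + cnt s l := by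
  induction l with
  | nil => simp
  | cons x xs ih =>
    have hx := h x (by simp)
    have ih' := ih (fun y hy => h y (by simp [hy]))
    simp only [cnt_cons]
    by_cases hp : p x
    · rcases hx hp with hq | hs
      · rw [if_pos hp, if_pos hq]; split_ifs <;> omega
      · rw [if_pos hp, if_pos hs]; split_ifs <;> omega
    · rw [if_neg hp]; split_ifs <;> omega

theorem cnt_eq_zero {p : V → Prop} {l : List V} (h : ∀ x ∈ l, ¬ p x) : cnt p l = 0 := by
  rw [cnt, List.countP_eq_zero]
  intro x hx
  simp [h x hx]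

theorem cnt_eq_length {p : V → Prop} {l : List V} (h : ∀ x ∈ l, p x) : cnt p l = l.length := by
  rw [cnt, List.countP_eq_length]
  intro x hx
  simp [h x hx]

theorem cnt_le_card_filter [Fintype V] (p : V → Prop) [DecidablePred p] (S : List V)
    (hS : S.Nodup) : cnt p S ≤ (univ.filter p).card := by
  rw [cnt, List.countP_eq_length_filter, ← List.toFinset_card_of_nodup (hS.filter _)]
  apply Finset.card_le_card
  intro x hx
  simp only [List.mem_toFinset, List.mem_filter, decide_eq_true_eq] at hx
  simp [hx.2]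

theorem card_filter_eq_cnt [Fintype V] (p : V → Prop) [DecidablePred p] (L : List V)
    (hL : L.Nodup) (hmem : ∀ x, x ∈ L) : (univ.filter p).card = cnt p L := by
  rw [cnt, List.countP_eq_length_filter, ← List.toFinset_card_of_nodup (hL.filter _)]
  congr 1
  ext x
  simp [hmem x]

/-- Number of pairs of positions `i < j` in the list with `R l[i] l[j]`. -/
noncomputable def wt (R : V → V → Prop) : List V → ℕ
  | [] => 0
  | x :: xs => cnt (R x) xs + wt R xs

/-- Number of pairs `(x, y)` of positions in `xs × ys` with `R x y`. -/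
noncomputable def cross (R : V → V → Prop) : List V → List V → ℕ
  | [], _ => 0
  | x :: xs, ys => cnt (R x) ys + cross R xs ys

theorem cross_append_left (R : V → V → Prop) (xs ys zs : List V) :
    cross R (xs ++ ys) zs = cross R xs zs + cross R ys zs := by
  induction xs with
  | nil => simp [cross]
  | cons x xs ih => simp [cross, ih]; omega

theorem cross_singleton_left (R : V → V → Prop) (b : V) (S : List V) :
    cross R [b] S = cnt (R b) S := by
  simp [cross]

theorem cross_singleton_right (R : V → V → Prop) (b : V) (S : List V) :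
    cross R S [b] = cnt (fun x => R x b) S := by
  induction S with
  | nil => simp [cross]
  | cons x xs ih =>
    simp only [cross, ih, cnt_cons, cnt_nil]
    omega

theorem wt_append (R : V → V → Prop) (xs ys : List V) :
    wt R (xs ++ ys) = wt R xs + wt R ys + cross R xs ys := by
  induction xs with
  | nil => simp [wt, cross]
  | cons x xs ih =>
    simp only [List.cons_append, wt, cross, ih, cnt_append]
    have := cnt_append (R x) xs ys
    omega

theorem wt_singleton (R : V → V → Prop) (b : V) : wt R [b] = 0 := by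
  simp [wt]

theorem cross_append_right (R : V → V → Prop) (xs ys zs : List V) :
    cross R xs (ys ++ zs) = cross R xs ys + cross R xs zs := by
  induction xs with
  | nil => simp [cross]
  | cons x xs ih =>
    simp only [cross, ih, cnt_append]
    omega

/-- Moving `b` to the left across the segment `S`. -/
theorem wt_swap (R : V → V → Prop) (Q S T : List V) (b : V) :
    wt R (Q ++ S ++ [b] ++ T) + cnt (R b) S
      = wt R (Q ++ [b] ++ S ++ T) + cnt (fun x => R x b) S := by
  have e1 : wt R (Q ++ S ++ [b] ++ T)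
      = wt R Q + wt R S + wt R T + cross R Q S + cross R Q [b] + cross R Q T
        + cross R S [b] + cross R S T + cross R [b] T := by
    simp only [wt_append, wt_singleton, cross_append_left]
    omega
  have e2 : wt R (Q ++ [b] ++ S ++ T)
      = wt R Q + wt R S + wt R T + cross R Q S + cross R Q [b] + cross R Q T
        + cross R [b] S + cross R S T + cross R [b] T := by
    simp only [wt_append, wt_singleton, cross_append_left]
    omega
  have e3 := cross_singleton_left R b S
  have e4 := cross_singleton_right R b S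
  omega

theorem exists_split (B : V → Prop) (Q : List V) :
    ∃ Q₀ S, Q = Q₀ ++ S ∧ (∀ x ∈ S, ¬ B x) ∧ (Q₀ = [] ∨ ∃ Q' b, Q₀ = Q' ++ [b] ∧ B b) := by
  induction Q using List.reverseRecOn with
  | nil => exact ⟨[], [], rfl, by simp, Or.inl rfl⟩
  | append_singleton Q x ih =>
    obtain ⟨Q₀, S, h1, h2, h3⟩ := ih
    by_cases hx : B x
    · exact ⟨Q ++ [x], [], by simp, by simp, Or.inr ⟨Q, x, rfl, hx⟩⟩
    · refine ⟨Q₀, S ++ [x], by simp [h1], ?_, h3⟩
      intro y hy
      simp only [List.mem_append, List.mem_singleton] at hy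
      rcases hy with hy | rfl
      · exact h2 y hy
      · exact hx

/-- Counting along the blocks: if every block has at least as many `C` as `A`
then the same holds for the whole list. -/
theorem count_blocks (B pA pC : V → Prop) (P : List V)
    (hblock : ∀ Q S b T, P = Q ++ S ++ [b] ++ T → B b → (∀ x ∈ S, ¬ B x) → cnt pA S ≤ cnt pC S)
    (hbad : ∀ b, B b → ¬ pA b)
    (hfinal : ∀ Q S, P = Q ++ S → (∀ x ∈ S, ¬ B x) → cnt pA S ≤ cnt pC S) :
    cnt pA P ≤ cnt pC P := by
  have key : ∀ n, ∀ Q T, Q.length ≤ n → P = Q ++ T → (Q = [] ∨ ∃ Q' b, Q = Q' ++ [b] ∧ B b) →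
      cnt pA Q ≤ cnt pC Q := by
    intro n
    induction n with
    | zero =>
      intro Q T hlen _ _
      have : Q = [] := List.length_eq_zero_iff.mp (by omega)
      simp [this]
    | succ n ih =>
      intro Q T hlen hP hQ
      rcases hQ with rfl | ⟨Q', b, rfl, hb⟩
      · simp
      obtain ⟨Q₀, S, h1, h2, h3⟩ := exists_split B Q'
      have hlen' : Q₀.length ≤ n := by
        have : (Q' ++ [b]).length = Q'.length + 1 := by simp
        have h4 : Q'.length = Q₀.length + S.length := by simp [h1]
        omega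
      have h5 := ih Q₀ (S ++ [b] ++ T) hlen' (by simp [hP, h1]) h3
      have h6 := hblock Q₀ S b T (by simp [hP, h1]) hb h2
      subst h1
      simp only [cnt_append, cnt_cons, cnt_nil, if_neg (hbad b hb)]
      split_ifs <;> omega
  obtain ⟨Q₀, S, h1, h2, h3⟩ := exists_split B P
  have h5 := key P.length Q₀ S (by simp [h1]) h1 h3
  have h6 := hfinal Q₀ S h1 h2
  rw [h1, cnt_append, cnt_append]
  omega

section main

variable [Fintype V] (r r' : V → V → Prop)

/-- First out-neighbourhood. -/
noncomputable def firstOut (v : V) : Finset V := univ.filter fun u => r v u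

/-- Second out-neighbourhood. -/
noncomputable def secondOut (v : V) : Finset V :=
  univ.filter fun w => w ≠ v ∧ ¬ r v w ∧ ∃ u, r v u ∧ r u w

/-- Main theorem: the tie-broken median order argument. -/
theorem exists_seymour_of_completion [Nonempty V]
    (hr' : ∀ x y, r' x y → ¬ r' y x) (hsub : ∀ x y, r x y → r' x y)
    (G1 : ∀ a b f, r' a b → ¬ r a b → r f a → r f b ∨ ∃ u, r f u ∧ r u b)
    (G2 : ∀ f b, b ≠ f → ¬ r f b → (¬ ∃ u, r f u ∧ r u b) →
      (univ.filter fun a => r f a ∧ a ≠ b ∧ ¬ r' a b ∧ ¬ r' b a).card ≤ 1) :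
    ∃ v, (firstOut r v).card ≤ (secondOut r v).card := by
  -- first maximisation
  let Lall : List V := (univ : Finset V).toList
  let Pm : Finset (List V) := (Lall.permutations).toFinset
  have hPm : ∀ L, L ∈ Pm ↔ L.Perm Lall := by
    intro L
    simp [Pm, List.mem_permutations]
  have hPm0 : Pm.Nonempty := ⟨Lall, (hPm _).2 (List.Perm.refl _)⟩
  obtain ⟨L₀, hL₀, hmax₀⟩ := Finset.exists_max_image Pm (wt r') hPm0
  have hL₀perm := (hPm _).1 hL₀
  have hL₀ne : L₀ ≠ [] := by
    intro h
    rw [h] at hL₀perm
    have := hL₀perm.symm.eq_nil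
    have hmem : (Classical.arbitrary V) ∈ Lall := by simp [Lall]
    rw [this] at hmem
    simp at hmem
  obtain ⟨P₀, f, hP₀⟩ : ∃ P₀ f, L₀ = P₀ ++ [f] :=
    ⟨L₀.dropLast, L₀.getLast hL₀ne, (List.dropLast_append_getLast hL₀ne).symm⟩
  -- the sets for the fixed feed
  let B : V → Prop := fun x => x ≠ f ∧ ¬ r f x ∧ ¬ ∃ u, r f u ∧ r u x
  let C : V → Prop := fun x => x ≠ f ∧ ¬ r f x ∧ ∃ u, r f u ∧ r u x
  let ρ : V → V → Prop := fun x y => ¬ B x ∧ B y
  -- second optimisation
  let Qm : Finset (List V) := Pm.filter fun L => wt r' L = wt r' L₀ ∧ ∃ P, L = P ++ [f]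
  have hQm0 : Qm.Nonempty := ⟨L₀, Finset.mem_filter.2 ⟨hL₀, rfl, P₀, hP₀⟩⟩
  obtain ⟨L, hL, hmin⟩ := Finset.exists_min_image Qm (wt ρ) hQm0
  simp only [Qm, Finset.mem_filter] at hL
  obtain ⟨hLPm, hLwt, P, rfl⟩ := hL
  have hLperm := (hPm _).1 hLPm
  have hnodup : (P ++ [f]).Nodup := hLperm.nodup_iff.2 (Finset.nodup_toList _)
  have hmem : ∀ x, x ∈ P ++ [f] := fun x => hLperm.mem_iff.2 (by simp [Lall])
  have hfP : f ∉ P := by
    intro h
    have := (List.nodup_append.1 hnodup).2.2 f h f (by simp)
    exact this rfl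
  -- optimality facts
  have hopt : ∀ L', L'.Perm (P ++ [f]) → wt r' L' ≤ wt r' (P ++ [f]) := by
    intro L' hL'
    rw [hLwt]
    exact hmax₀ L' ((hPm _).2 (hL'.trans hLperm))
  have htie : ∀ L', L'.Perm (P ++ [f]) → wt r' L' = wt r' (P ++ [f]) → (∃ P', L' = P' ++ [f]) →
      wt ρ (P ++ [f]) ≤ wt ρ L' := by
    intro L' hL' h1 h2
    apply hmin
    simp only [Qm, Finset.mem_filter]
    exact ⟨(hPm _).2 (hL'.trans hLperm), h1.trans hLwt, h2⟩
  -- trichotomy
  have htri : ∀ x, x ≠ f → ¬ B x → r f x ∨ C x := by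
    intro x hx hB
    by_cases h : r f x
    · exact Or.inl h
    · refine Or.inr ⟨hx, h, ?_⟩
      by_contra hc
      exact hB ⟨hx, h, hc⟩
  -- the blocks
  have hblock : ∀ Q S b T, P = Q ++ S ++ [b] ++ T → B b → (∀ x ∈ S, ¬ B x) →
      cnt (fun x => r f x) S ≤ cnt C S := by
    intro Q S b T hP hb hS
    by_cases hSe : S = []
    · simp [hSe]
    -- nodup facts
    have hnd : (Q ++ S ++ [b] ++ T ++ [f]).Nodup := by rw [← hP]; exact hnodup
    have hSf : ∀ x ∈ S, x ≠ f := by
      intro x hx h
      apply hfP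
      rw [hP, ← h]
      simp [hx]
    have hSb : ∀ x ∈ S, x ≠ b := by
      intro x hx h
      have h1 : ((Q ++ S) ++ [b]).Nodup := by
        have : (Q ++ S ++ [b] ++ T ++ [f]) = ((Q ++ S) ++ [b]) ++ (T ++ [f]) := by simp
        rw [this] at hnd
        exact (List.nodup_append.1 hnd).1
      have := (List.nodup_append.1 h1).2.2 x (by simp [hx]) b (by simp)
      exact this h
    have hSnd : S.Nodup := by
      have : (Q ++ S ++ [b] ++ T ++ [f]) = Q ++ (S ++ ([b] ++ T ++ [f])) := by simp
      rw [this] at hnd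
      exact (List.nodup_append.1 (List.nodup_append.1 hnd).2.1).1
    -- the swap
    have hLeq : P ++ [f] = Q ++ S ++ [b] ++ (T ++ [f]) := by simp [hP]
    have hperm : (Q ++ [b] ++ S ++ (T ++ [f])).Perm (P ++ [f]) := by
      rw [hLeq]
      simp only [List.append_assoc]
      apply List.Perm.append_left
      exact (List.perm_append_comm_assoc S [b] (T ++ [f])).symm
    have hsw := wt_swap r' Q S (T ++ [f]) b
    have hsw2 := wt_swap ρ Q S (T ++ [f]) b
    rw [← hLeq] at hsw hsw2
    have hle := hopt _ hperm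
    have hin_out : cnt (r' b) S + 1 ≤ cnt (fun x => r' x b) S := by
      by_contra hcon
      have heq : wt r' (Q ++ [b] ++ S ++ (T ++ [f])) = wt r' (P ++ [f]) := by
        omega
      have h3 := htie _ hperm heq ⟨Q ++ [b] ++ S ++ T, by simp⟩
      have h4 : cnt (ρ b) S = 0 := cnt_eq_zero (fun y _ hy => hy.1 hb)
      have h5 : cnt (fun x => ρ x b) S = S.length :=
        cnt_eq_length (fun x hx => ⟨hS x hx, hb⟩)
      have h6 : 0 < S.length := List.length_pos_iff.2 hSe
      omega
    -- no in-neighbour of b among the first neighbours of f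
    have hnoA : ∀ a, r f a → ¬ r' a b := by
      intro a ha hab
      by_cases hrab : r a b
      · exact hb.2.2 ⟨a, ha, hrab⟩
      · rcases G1 a b f hab hrab ha with h | h
        · exact hb.2.1 h
        · exact hb.2.2 h
    have hin : cnt (fun x => r' x b) S ≤ cnt C S := by
      apply cnt_mono
      intro x hx hxb
      rcases htri x (hSf x hx) (hS x hx) with h | h
      · exact absurd hxb (hnoA x h)
      · exact h
    have hU : cnt (fun a => r f a ∧ a ≠ b ∧ ¬ r' a b ∧ ¬ r' b a) S ≤ 1 :=
      (cnt_le_card_filter _ S hSnd).trans (G2 f b hb.1 hb.2.1 hb.2.2)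
    have hA : cnt (fun x => r f x) S
        ≤ cnt (r' b) S + cnt (fun a => r f a ∧ a ≠ b ∧ ¬ r' a b ∧ ¬ r' b a) S := by
      apply cnt_le_add_of_imp
      intro x hx hfx
      by_cases hbx : r' b x
      · exact Or.inl hbx
      · exact Or.inr ⟨hfx, hSb x hx, hnoA x hfx, hbx⟩
    omega
  -- the last segment
  have hfinal : ∀ Q S, P = Q ++ S → (∀ x ∈ S, ¬ B x) → cnt (fun x => r f x) S ≤ cnt C S := by
    intro Q S hP hS
    have hSf : ∀ x ∈ S, x ≠ f := by
      intro x hx h
      apply hfP
      rw [hP, ← h]
      simp [hx]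
    have hLeq : P ++ [f] = Q ++ S ++ [f] ++ [] := by simp [hP]
    have hperm : (Q ++ [f] ++ S ++ []).Perm (P ++ [f]) := by
      rw [hLeq]
      simp only [List.append_assoc]
      apply List.Perm.append_left
      exact (List.perm_append_comm_assoc S [f] []).symm
    have hsw := wt_swap r' Q S [] f
    rw [← hLeq] at hsw
    have hle := hopt _ hperm
    have h1 : cnt (fun x => r f x) S ≤ cnt (r' f) S :=
      cnt_mono (fun x _ hx => hsub _ _ hx)
    have h2 : cnt (fun x => r' x f) S ≤ cnt C S := by
      apply cnt_mono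
      intro x hx hxf
      rcases htri x (hSf x hx) (hS x hx) with h | h
      · exact absurd hxf (hr' _ _ (hsub _ _ h))
      · exact h
    omega
  -- conclusion
  have hbadA : ∀ b, B b → ¬ r f b := fun b hb => hb.2.1
  have hcount := count_blocks B (fun x => r f x) C P hblock hbadA hfinal
  refine ⟨f, ?_⟩
  have e1 : (firstOut r f).card = cnt (fun x => r f x) (P ++ [f]) :=
    card_filter_eq_cnt _ _ hnodup hmem
  have e2 : (secondOut r f).card = cnt C (P ++ [f]) :=
    card_filter_eq_cnt _ _ hnodup hmem
  rw [e1, e2, cnt_append, cnt_append]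
  have e3 : cnt (fun x => r f x) [f] ≤ cnt C [f] := by
    have hrff : ¬ r f f := fun h => hr' _ _ (hsub _ _ h) (hsub _ _ h)
    simp [cnt_cons, hrff]
  omega

end main

end Vale.Agent.P038h8
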